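import Vale.Agent.P154.R5.C15Chk45
import Vale.Agent.P154.R5.C15Chk46

/-! # P154 q = 4: kernel checks for the closure certificate (psF (23/10) (7/10) on T x T, D = 15) -/

namespace Vale.Agent.P154.C15

open Vale.Agent.Util.Polya Vale.Agent.P154

set_option maxRecDepth 100000

theorem check_append' {w S D : ℕ} {L : List (PE × PE)} {r0 n r1 m : ℕ}
    (h1 : check w S D L r0 n = true) (h2 : check w S D L r1 m = true) (e1 : r1 = r0 + n) (k : ℕ)
    (e2 : k = n + m) : check w S D L r0 k = true := by
  subst e1 e2
  exact check_append h1 h2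

theorem hgood : good 15 15 170 (certE 15 0 1 0 1 Ld [Xs0, Xs1] [Xt0, Xt1]) = true := by
  decide +kernel

theorem hbnd : 2 * bnd (certE 15 0 1 0 1 Ld [Xs0, Xs1] [Xt0, Xt1]) < 2 ^ 170 := by
  decide +kernel

theorem hchk : check 170 16 15 (certE 15 0 1 0 1 Ld [Xs0, Xs1] [Xt0, Xt1]) 0 (16 * 16) = true := by
  have h1 := hchk1
  have h2 := check_append' h1 hchk2 (by norm_num) 3 (by norm_num)
  have h3 := check_append' h2 hchk3 (by norm_num) 4 (by norm_num)
  have h4 := check_append' h3 hchk4 (by norm_num) 6 (by norm_num)
  have h5 := check_append' h4 hchk5 (by norm_num) 8 (by norm_num)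
  have h6 := check_append' h5 hchk6 (by norm_num) 10 (by norm_num)
  have h7 := check_append' h6 hchk7 (by norm_num) 16 (by norm_num)
  have h8 := check_append' h7 hchk8 (by norm_num) 17 (by norm_num)
  have h9 := check_append' h8 hchk9 (by norm_num) 18 (by norm_num)
  have h10 := check_append' h9 hchk10 (by norm_num) 20 (by norm_num)
  have h11 := check_append' h10 hchk11 (by norm_num) 22 (by norm_num)
  have h12 := check_append' h11 hchk12 (by norm_num) 24 (by norm_num)
  have h13 := check_append' h12 hchk13 (by norm_num) 30 (by norm_num)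
  have h14 := check_append' h13 hchk14 (by norm_num) 33 (by norm_num)
  have h15 := check_append' h14 hchk15 (by norm_num) 34 (by norm_num)
  have h16 := check_append' h15 hchk16 (by norm_num) 36 (by norm_num)
  have h17 := check_append' h16 hchk17 (by norm_num) 38 (by norm_num)
  have h18 := check_append' h17 hchk18 (by norm_num) 40 (by norm_num)
  have h19 := check_append' h18 hchk19 (by norm_num) 46 (by norm_num)
  have h20 := check_append' h19 hchk20 (by norm_num) 49 (by norm_num)
  have h21 := check_append' h20 hchk21 (by norm_num) 51 (by norm_num)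
  have h22 := check_append' h21 hchk22 (by norm_num) 53 (by norm_num)
  have h23 := check_append' h22 hchk23 (by norm_num) 55 (by norm_num)
  have h24 := check_append' h23 hchk24 (by norm_num) 60 (by norm_num)
  have h25 := check_append' h24 hchk25 (by norm_num) 65 (by norm_num)
  have h26 := check_append' h25 hchk26 (by norm_num) 67 (by norm_num)
  have h27 := check_append' h26 hchk27 (by norm_num) 69 (by norm_num)
  have h28 := check_append' h27 hchk28 (by norm_num) 72 (by norm_num)
  have h29 := check_append' h28 hchk29 (by norm_num) 81 (by norm_num)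
  have h30 := check_append' h29 hchk30 (by norm_num) 83 (by norm_num)
  have h31 := check_append' h30 hchk31 (by norm_num) 85 (by norm_num)
  have h32 := check_append' h31 hchk32 (by norm_num) 90 (by norm_num)
  have h33 := check_append' h32 hchk33 (by norm_num) 97 (by norm_num)
  have h34 := check_append' h33 hchk34 (by norm_num) 100 (by norm_num)
  have h35 := check_append' h34 hchk35 (by norm_num) 108 (by norm_num)
  have h36 := check_append' h35 hchk36 (by norm_num) 114 (by norm_num)
  have h37 := check_append' h36 hchk37 (by norm_num) 119 (by norm_num)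
  have h38 := check_append' h37 hchk38 (by norm_num) 129 (by norm_num)
  have h39 := check_append' h38 hchk39 (by norm_num) 134 (by norm_num)
  have h40 := check_append' h39 hchk40 (by norm_num) 145 (by norm_num)
  have h41 := check_append' h40 hchk41 (by norm_num) 153 (by norm_num)
  have h42 := check_append' h41 hchk42 (by norm_num) 163 (by norm_num)
  have h43 := check_append' h42 hchk43 (by norm_num) 185 (by norm_num)
  have h44 := check_append' h43 hchk44 (by norm_num) 209 (by norm_num)
  have h45 := check_append' h44 hchk45 (by norm_num) 232 (by norm_num)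
  have h46 := check_append' h45 hchk46 (by norm_num) 256 (by norm_num)
  have e : 256 = 16 * 16 := by norm_num
  rw [e] at h46
  exact h46

theorem hpitLd : pit4 108 16 (smE 15 Ld (.v 0) (.v 1) (.v 2) (.v 3) (.c 1)) tgtLd = true := by
  decide +kernel

theorem hpitXs0 : pit4 41 16 (smE 15 Xs0 (.v 0) (.v 1) (.v 2) (.v 3) (.c 1)) tXs0 = true := by
  decide +kernel

theorem hpitXt0 : pit4 41 16 (smE 15 Xt0 (.v 0) (.v 1) (.v 2) (.v 3) (.c 1)) tXt0 = true := by
  decide +kernel

theorem hpitXs1 : pit4 41 16 (smE 15 Xs1 (.v 0) (.v 1) (.v 2) (.v 3) (.c 1)) tXs1 = true := by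
  decide +kernel

theorem hpitXt1 : pit4 41 16 (smE 15 Xt1 (.v 0) (.v 1) (.v 2) (.v 3) (.c 1)) tXt1 = true := by
  decide +kernel

/-! positivity of the multipliers -/

theorem c1good : good 15 0 82 (oneE 15 0 1 Xt0) = true := by decide +kernel
theorem c1bnd : 2 * bnd (oneE 15 0 1 Xt0) < 2 ^ 82 := by decide +kernel
theorem c1chk : check 82 16 15 (oneE 15 0 1 Xt0) 0 (16 * 16) = true := by decide +kernel

theorem c2good : good 15 0 82 (oneE 15 0 1 Xs1) = true := by decide +kernel
theorem c2bnd : 2 * bnd (oneE 15 0 1 Xs1) < 2 ^ 82 := by decide +kernel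
theorem c2chk : check 82 16 15 (oneE 15 0 1 Xs1) 0 (16 * 16) = true := by decide +kernel

end Vale.Agent.P154.C15
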