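import Vale.Agent.P154.R5.C15Chk10

/-! # P154 q = 4: kernel check of the closure certificate (psF (23/10) (7/10) on T x T, D = 15), rows 22 to 23
(the modules are chained by their imports so that at most 2 of them are compiled at the same time) -/

namespace Vale.Agent.P154.C15

open Vale.Agent.Util.Polya Vale.Agent.P154

set_option maxRecDepth 100000

theorem hchk12 : check 170 16 15 (certE 15 0 1 0 1 Ld [Xs0, Xs1] [Xt0, Xt1]) 22 2 = true :=
  check_of_checkN (by decide +kernel)

end Vale.Agent.P154.C15
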