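import Vale.Agent.P154.R4K.C4Low

/-!
# P154 q = 4: the class function `psF k0 k5 = 2 m - k0 al ^ 2 + k5 al m` and its kernel

`KQ_psF_eq`: the kernel `KQ (psF k0 k5) a b` through `Z = e1`, `e2`, `e3` of `uQ a b`.
`KQ_psF_low`: lower bound if `1 / Z ^ j` is replaced by smaller numbers.
-/

namespace Vale.Agent.P154.R5

open Finset

/-- the class function `2 m - k0 al ^ 2 + k5 al m`, `m = (∑ e i ^ 3) / 24` -/
noncomputable def psF (k0 k5 : ℝ) (e : Fin 4 → ℝ) : ℝ :=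
  (∑ i, e i ^ 3) / 12 - k0 * (alQ e) ^ 2 + k5 * (alQ e * ((∑ i, e i ^ 3) / 24))

/-- the kernel `KQ (psF k0 k5)` with `1 / Z ^ j` replaced by `lj` -/
noncomputable def LB5 (k0 k5 Z E2 E3 l1 l2 l3 l4 : ℝ) : ℝ :=
  -Z + 16 * E3 * l2 + k5 / 2 * (Z ^ 2 - 8 / 3 * E2) * (16 * E3) * l4
    + (3 - k0 + k5) * (Z ^ 2 - 8 / 3 * E2) * l1
    + (k0 - 3 / 2 * k5) * (Z ^ 2 - 8 / 3 * E2) * (8 / 3 * E2) * l3

private lemma low5_mgQ_eq (a b : Fin 4 → ℝ) (i : Fin 4) :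
    mgQ a b i = 4 * uQ a b i / e1Q (uQ a b) - 1 := by
  rw [← ZQ_eq_e1]
  unfold mgQ uQ
  ring

theorem KQ_psF_eq (k0 k5 : ℝ) (a b : Fin 4 → ℝ) (hZ : 0 < ZQ a b) :
    KQ (psF k0 k5) a b = LB5 k0 k5 (e1Q (uQ a b)) (e2Q (uQ a b)) (e3Q (uQ a b))
      (1 / e1Q (uQ a b)) (1 / e1Q (uQ a b) ^ 2) (1 / e1Q (uQ a b) ^ 3) (1 / e1Q (uQ a b) ^ 4) := by
  have hZ' : 0 < e1Q (uQ a b) := ZQ_eq_e1 a b ▸ hZ
  unfold KQ psF alQ LB5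
  rw [Fin.sum_univ_four, Fin.sum_univ_four]
  simp only [low5_mgQ_eq]
  rw [ZQ_eq_e1]
  generalize uQ a b = U at *
  unfold e2Q e3Q
  have h1 : e1Q U = U 0 + U 1 + U 2 + U 3 := rfl
  generalize e1Q U = Z at *
  generalize U 0 = u0 at *
  generalize U 1 = u1 at *
  generalize U 2 = u2 at *
  generalize U 3 = u3 at *
  have hne : Z ≠ 0 := hZ'.ne'
  push_cast
  field_simp
  subst h1
  ring

theorem KQ_psF_low (k0 k5 : ℝ) (h5 : 0 ≤ k5) (h1' : 0 ≤ 3 - k0 + k5) (h3' : 0 ≤ k0 - 3 / 2 * k5)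
    (a b : Fin 4 → ℝ) (hZ : 0 < ZQ a b) (hU : ∀ i, 0 ≤ uQ a b i) (l1 l2 l3 l4 : ℝ)
    (h1 : l1 ≤ 1 / e1Q (uQ a b)) (h2 : l2 ≤ 1 / e1Q (uQ a b) ^ 2)
    (h3 : l3 ≤ 1 / e1Q (uQ a b) ^ 3) (h4 : l4 ≤ 1 / e1Q (uQ a b) ^ 4) :
    LB5 k0 k5 (e1Q (uQ a b)) (e2Q (uQ a b)) (e3Q (uQ a b)) l1 l2 l3 l4 ≤ KQ (psF k0 k5) a b := by
  rw [KQ_psF_eq k0 k5 a b hZ]
  have hN := e1sq_sub_nonneg (uQ a b)
  have hE2 := e2Q_nonneg (uQ a b) hU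
  have hE3 := e3Q_nonneg (uQ a b) hU
  generalize e1Q (uQ a b) = Z at *
  generalize e2Q (uQ a b) = E2 at *
  generalize e3Q (uQ a b) = E3 at *
  unfold LB5
  have t2 : 16 * E3 * l2 ≤ 16 * E3 * (1 / Z ^ 2) :=
    mul_le_mul_of_nonneg_left h2 (by positivity)
  have t4 : k5 / 2 * (Z ^ 2 - 8 / 3 * E2) * (16 * E3) * l4 ≤
      k5 / 2 * (Z ^ 2 - 8 / 3 * E2) * (16 * E3) * (1 / Z ^ 4) :=
    mul_le_mul_of_nonneg_left h4 (mul_nonneg (mul_nonneg (by linarith) hN) (by positivity))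
  have t1 : (3 - k0 + k5) * (Z ^ 2 - 8 / 3 * E2) * l1 ≤
      (3 - k0 + k5) * (Z ^ 2 - 8 / 3 * E2) * (1 / Z) :=
    mul_le_mul_of_nonneg_left h1 (mul_nonneg h1' hN)
  have t3 : (k0 - 3 / 2 * k5) * (Z ^ 2 - 8 / 3 * E2) * (8 / 3 * E2) * l3 ≤
      (k0 - 3 / 2 * k5) * (Z ^ 2 - 8 / 3 * E2) * (8 / 3 * E2) * (1 / Z ^ 3) :=
    mul_le_mul_of_nonneg_left h3 (mul_nonneg (mul_nonneg h3' hN) (by positivity))
  linarith

/-- positivity of the normalisation if `a ≥ -1`, `∑ a = 0`, `b > -1` -/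
theorem ZQ_pos_of_lt (a b : Fin 4 → ℝ) (ha0 : ∑ i, a i = 0) (ha : ∀ i, -1 ≤ a i)
    (hb : ∀ i, -1 < b i) : 0 < ZQ a b := by
  rw [ZQ_eq_e1]
  rw [Fin.sum_univ_four] at ha0
  unfold e1Q uQ
  have p0 : 0 ≤ (1 + a 0) * (1 + b 0) := mul_nonneg (by linarith [ha 0]) (by linarith [hb 0])
  have p1 : 0 ≤ (1 + a 1) * (1 + b 1) := mul_nonneg (by linarith [ha 1]) (by linarith [hb 1])
  have p2 : 0 ≤ (1 + a 2) * (1 + b 2) := mul_nonneg (by linarith [ha 2]) (by linarith [hb 2])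
  have p3 : 0 ≤ (1 + a 3) * (1 + b 3) := mul_nonneg (by linarith [ha 3]) (by linarith [hb 3])
  by_contra hcon
  have hz : (1 + a 0) * (1 + b 0) = 0 ∧ (1 + a 1) * (1 + b 1) = 0 ∧ (1 + a 2) * (1 + b 2) = 0 ∧
      (1 + a 3) * (1 + b 3) = 0 := by
    refine ⟨?_, ?_, ?_, ?_⟩ <;> linarith
  obtain ⟨z0, z1, z2, z3⟩ := hz
  have q0 : 1 + a 0 = 0 := (mul_eq_zero.mp z0).resolve_right (by linarith [hb 0])
  have q1 : 1 + a 1 = 0 := (mul_eq_zero.mp z1).resolve_right (by linarith [hb 1])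
  have q2 : 1 + a 2 = 0 := (mul_eq_zero.mp z2).resolve_right (by linarith [hb 2])
  have q3 : 1 + a 3 = 0 := (mul_eq_zero.mp z3).resolve_right (by linarith [hb 3])
  linarith

/-- `Z ≤ 4` on `T × T` -/
theorem e1Q_le_four (a b : Fin 4 → ℝ) (ha0 : ∑ i, a i = 0) (ha : ∀ i, -1 ≤ a i)
    (hb0 : ∑ i, b i = 0) (hb : ∀ i, -1 ≤ b i) : e1Q (uQ a b) ≤ 4 := by
  rw [Fin.sum_univ_four] at ha0 hb0
  unfold e1Q uQ
  have p0 : 0 ≤ (1 + a 0) * (3 - b 0) :=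
    mul_nonneg (by linarith [ha 0]) (by linarith [hb 1, hb 2, hb 3])
  have p1 : 0 ≤ (1 + a 1) * (3 - b 1) :=
    mul_nonneg (by linarith [ha 1]) (by linarith [hb 0, hb 2, hb 3])
  have p2 : 0 ≤ (1 + a 2) * (3 - b 2) :=
    mul_nonneg (by linarith [ha 2]) (by linarith [hb 1, hb 0, hb 3])
  have p3 : 0 ≤ (1 + a 3) * (3 - b 3) :=
    mul_nonneg (by linarith [ha 3]) (by linarith [hb 1, hb 2, hb 0])
  nlinarith [p0, p1, p2, p3]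

end Vale.Agent.P154.R5
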