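import Vale.Agent.P154.R5.C15Chk
import Vale.Agent.P154.R5.Low5
import Vale.Agent.P154.TT.Min15
import Vale.Agent.P154.Q4.Cls5

/-!
# P154 q = 4: the closure inequality (C4) on `T × T` for the class function `ps5 (23/10) (7/10)`

`keyC`: `cC b * ps5 (23/10) (7/10) a + cC a * ps5 (23/10) (7/10) b ≤ avQ (KQ (ps5 (23/10) (7/10)) a) b`
for `a`, `b` in `DT 1`, `b > -1`, and `cC ≥ 0` on `DT 1`.
(Certificate: helper46, bidegree `(15, 15)`; minorants of `1 / Z ^ j` on `0 < Z ≤ 4`: `TT/Min15.lean`.)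
-/

namespace Vale.Agent.P154.C15

open Finset Vale.Agent.Util.Polya Vale.Agent.P154 Vale.Agent.P154.R5

/-- the multiplier -/
noncomputable def cC (b : Fin 4 → ℝ) : ℝ :=
  1 - 13761 / 40000 * (∑ i, b i ^ 2) - 103 / 800 * (∑ i, b i ^ 3)
    - 11409 / 64000 * (∑ i, b i ^ 2) ^ 2 + 43297 / 80000 * (∑ i, b i ^ 4)
    - 29801 / 480000 * ((∑ i, b i ^ 2) * ∑ i, b i ^ 3) + 46719 / 1280000 * (∑ i, b i ^ 2) ^ 3
    + 43357 / 1920000 * (∑ i, b i ^ 3) ^ 2 - 22709 / 320000 * ((∑ i, b i ^ 2) * ∑ i, b i ^ 4)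

theorem sideP (a : Fin 4 → ℝ) (ha0 : ∑ i, a i = 0) (ha : ∀ i, -1 ≤ a i) :
    SideT (fun i => (1 + a i) / 4) 0 1 1 := by
  refine ⟨fun i => (1 + a i) / 4, fun i => by linarith [ha i], ?_, fun i => by push_cast; ring⟩
  rw [← Finset.sum_div, Finset.sum_add_distrib, ha0]
  simp

theorem lXs0 (a : Fin 4 → ℝ) :
    sm 15 Xs0 ((1 + a 0) / 4) ((1 + a 1) / 4) ((1 + a 2) / 4) ((1 + a 3) / 4) 1 =
      -3375000000 * psF (23 / 10) (7 / 10) a := by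
  have h := sm_eq_of_pit4 41 16 15 Xs0 (.v 0) (.v 1) (.v 2) (.v 3) (.c 1) tXs0 hpitXs0
    (fun i => (1 + a i) / 4)
  simp only [PE.ev, Int.cast_one] at h
  rw [h, tXs0, ev_sideE6 _ a _ _ _ _ _ _ _ _ _ _ _ (fun i => by push_cast; ring)]
  unfold psF alQ
  push_cast
  ring

theorem lXs1 (a : Fin 4 → ℝ) :
    sm 15 Xs1 ((1 + a 0) / 4) ((1 + a 1) / 4) ((1 + a 2) / 4) ((1 + a 3) / 4) 1 =
      11520000 * cC a := by
  have h := sm_eq_of_pit4 41 16 15 Xs1 (.v 0) (.v 1) (.v 2) (.v 3) (.c 1) tXs1 hpitXs1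
    (fun i => (1 + a i) / 4)
  simp only [PE.ev, Int.cast_one] at h
  rw [h, tXs1, ev_sideE6 _ a _ _ _ _ _ _ _ _ _ _ _ (fun i => by push_cast; ring)]
  unfold cC
  push_cast
  ring

theorem lXt0 (b : Fin 4 → ℝ) :
    sm 15 Xt0 ((1 + b 0) / 4) ((1 + b 1) / 4) ((1 + b 2) / 4) ((1 + b 3) / 4) 1 =
      11520000 * cC b := by
  have h := sm_eq_of_pit4 41 16 15 Xt0 (.v 0) (.v 1) (.v 2) (.v 3) (.c 1) tXt0 hpitXt0
    (fun i => (1 + b i) / 4)
  simp only [PE.ev, Int.cast_one] at h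
  rw [h, tXt0, ev_sideE6 _ b _ _ _ _ _ _ _ _ _ _ _ (fun i => by push_cast; ring)]
  unfold cC
  push_cast
  ring

theorem lXt1 (b : Fin 4 → ℝ) :
    sm 15 Xt1 ((1 + b 0) / 4) ((1 + b 1) / 4) ((1 + b 2) / 4) ((1 + b 3) / 4) 1 =
      -3375000000 * psF (23 / 10) (7 / 10) b := by
  have h := sm_eq_of_pit4 41 16 15 Xt1 (.v 0) (.v 1) (.v 2) (.v 3) (.c 1) tXt1 hpitXt1
    (fun i => (1 + b i) / 4)
  simp only [PE.ev, Int.cast_one] at h
  rw [h, tXt1, ev_sideE6 _ b _ _ _ _ _ _ _ _ _ _ _ (fun i => by push_cast; ring)]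
  unfold psF alQ
  push_cast
  ring

theorem lLd (v : Fin 4 → ℝ) :
    sm 15 Ld (v 0) (v 1) (v 2) (v 3) 1 =
      1620000000000000 * LB5 (23 / 10) (7 / 10) (4 * e1Q v) (16 * e2Q v) (64 * e3Q v)
        (TT15.L1 (4 * e1Q v - 1)) (TT15.L2 (4 * e1Q v - 1)) (TT15.L3 (4 * e1Q v - 1))
        (TT15.L4 (4 * e1Q v - 1)) := by
  have h := sm_eq_of_pit4 108 16 15 Ld (.v 0) (.v 1) (.v 2) (.v 3) (.c 1) tgtLd hpitLd v
  simp only [PE.ev, Int.cast_one] at h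
  rw [h]
  unfold tgtLd
  simp only [PE.ev, ev_e1E, ev_e2E, ev_e3E]
  generalize e1Q v = Z
  generalize e2Q v = E2
  generalize e3Q v = E3
  unfold LB5 TT15.L1 TT15.L2 TT15.L3 TT15.L4
  push_cast
  ring

theorem cC_nonneg' (b : Fin 4 → ℝ) (hb0 : ∑ i, b i = 0) (hb : ∀ i, -1 ≤ b i) : 0 ≤ cC b := by
  have h := sm_nonneg_of_check 82 16 15 0 1 Xt0 (by norm_num) (by norm_num) c1good c1bnd c1chk _ 1
    (sideP b hb0 hb)
  simp only [lXt0] at h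
  linarith

/-- the closure inequality for `psF` -/
theorem keyF (a b : Fin 4 → ℝ) (ha0 : ∑ i, a i = 0) (ha : ∀ i, -1 ≤ a i) (hb0 : ∑ i, b i = 0)
    (hb : ∀ i, -1 < b i) :
    cC b * psF (23 / 10) (7 / 10) a + cC a * psF (23 / 10) (7 / 10) b ≤
      avQ (KQ (psF (23 / 10) (7 / 10)) a) b := by
  have hb' : ∀ i, -1 ≤ b i := fun i => (hb i).le
  have hM := masterG 170 16 15 0 1 0 1 Ld [Xs0, Xs1] [Xt0, Xt1] (by norm_num) (by norm_num) hgood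
    hbnd hchk _ _ 1 1 (sideP a ha0 ha) (sideP b hb0 hb')
  simp only [List.map_cons, List.map_nil, dotRR, lXs0, lXs1, lXt0, lXt1, mul_one, add_zero] at hM
  -- the lower bounds for the single permutations
  have hlow : ∀ σ : Equiv.Perm (Fin 4),
      sm 15 Ld ((1 + a 0) / 4 * ((1 + b (σ 0)) / 4)) ((1 + a 1) / 4 * ((1 + b (σ 1)) / 4))
        ((1 + a 2) / 4 * ((1 + b (σ 2)) / 4)) ((1 + a 3) / 4 * ((1 + b (σ 3)) / 4)) 1
        / 1620000000000000 ≤ KQ (psF (23 / 10) (7 / 10)) a (fun i => b (σ i)) := by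
    intro σ
    have hs0 : ∑ i, b (σ i) = 0 := by rw [Equiv.sum_comp σ b]; exact hb0
    have hZ : 0 < ZQ a (fun i => b (σ i)) := ZQ_pos_of_lt a _ ha0 ha (fun i => hb (σ i))
    have hZ' : 0 < e1Q (uQ a (fun i => b (σ i))) := ZQ_eq_e1 a _ ▸ hZ
    have hZ4 : e1Q (uQ a (fun i => b (σ i))) ≤ 4 :=
      R5.e1Q_le_four a _ ha0 ha hs0 (fun i => hb' (σ i))
    have hU : ∀ i, 0 ≤ uQ a (fun i => b (σ i)) i :=
      uQ_nonneg_of a _ ha (fun i => hb' (σ i))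
    have m1 : TT15.L1 (e1Q (uQ a (fun i => b (σ i))) - 1) ≤ 1 / e1Q (uQ a (fun i => b (σ i))) := by
      rw [le_div_iff₀ hZ']
      simpa using TT15.L1_le _ hZ' hZ4
    have m2 : TT15.L2 (e1Q (uQ a (fun i => b (σ i))) - 1) ≤
        1 / e1Q (uQ a (fun i => b (σ i))) ^ 2 := by
      rw [le_div_iff₀ (by positivity)]
      exact TT15.L2_le _ hZ' hZ4
    have m3 : TT15.L3 (e1Q (uQ a (fun i => b (σ i))) - 1) ≤
        1 / e1Q (uQ a (fun i => b (σ i))) ^ 3 := by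
      rw [le_div_iff₀ (by positivity)]
      exact TT15.L3_le _ hZ' hZ4
    have m4' : TT15.L4 (e1Q (uQ a (fun i => b (σ i))) - 1) ≤
        1 / e1Q (uQ a (fun i => b (σ i))) ^ 4 := by
      rw [le_div_iff₀ (by positivity)]
      exact TT15.L4_le _ hZ' hZ4
    have h1 := KQ_psF_low (23 / 10) (7 / 10) (by norm_num) (by norm_num) (by norm_num) a
      (fun i => b (σ i)) hZ hU _ _ _ _ m1 m2 m3 m4'
    have h2 := lLd (fun i => (1 + a i) / 4 * ((1 + b (σ i)) / 4))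
    have e1 : 4 * e1Q (fun i => (1 + a i) / 4 * ((1 + b (σ i)) / 4)) =
        e1Q (uQ a (fun i => b (σ i))) := by
      unfold e1Q uQ
      ring
    have e2 : 16 * e2Q (fun i => (1 + a i) / 4 * ((1 + b (σ i)) / 4)) =
        e2Q (uQ a (fun i => b (σ i))) := by
      unfold e2Q uQ
      ring
    have e3 : 64 * e3Q (fun i => (1 + a i) / 4 * ((1 + b (σ i)) / 4)) =
        e3Q (uQ a (fun i => b (σ i))) := by
      unfold e3Q uQ
      ring
    rw [e1, e2, e3] at h2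
    rw [h2, mul_div_cancel_left₀ _ (by norm_num)]
    exact h1
  have hav := avQ_ge_of_forall (KQ (psF (23 / 10) (7 / 10)) a) b _ hlow
  rw [← Finset.sum_div] at hav
  refine le_trans ?_ hav
  rw [div_div, le_div_iff₀ (by norm_num)]
  linarith

theorem psF_eq_ps5 (k0 k5 : ℝ) : psF k0 k5 = ps5 k0 k5 := by
  funext a
  unfold psF ps5 m4
  ring

theorem cC_nonneg (b : Fin 4 → ℝ) (hb : DT 1 b) : 0 ≤ cC b := cC_nonneg' b hb.1 hb.2

/-- **the closure inequality (C4)** on `T × T` for the class function `ps5 (23/10) (7/10)` -/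
theorem keyC (a b : Fin 4 → ℝ) (ha : DT 1 a) (hb : DT 1 b) (hb1 : ∀ i, -1 < b i) :
    cC b * ps5 (23 / 10) (7 / 10) a + cC a * ps5 (23 / 10) (7 / 10) b ≤
      avQ (KQ (ps5 (23 / 10) (7 / 10)) a) b := by
  have h := keyF a b ha.1 ha.2 hb.1 hb1
  rwa [psF_eq_ps5] at h

end Vale.Agent.P154.C15
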