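import Vale.Agent.P154.R4K.SideE

/-! # P154 q = 4: expressions for symmetric polynomials of degree `≤ 6` given through power sums -/

namespace Vale.Agent.P154

open Vale.Agent.Util.Polya Finset

/-- `R0 + R2 S2 + R3 S3 + R22 S2 ^ 2 + R4 S4 + R23 S2 S3 + R222 S2 ^ 3 + R33 S3 ^ 2 + R24 S2 S4`,
`S_n` the power sums of `c1 * x_i + c0` -/
def sideE6 (c0 c1 R0 R2 R3 R22 R4 R23 R222 R33 R24 : ℤ) : PE :=
  .add (.add (.add (.add (sideE c0 c1 R0 R2 R3 R22 R4)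
    (.mul (.c R23) (.mul (psE c0 c1 2) (psE c0 c1 3))))
    (.mul (.c R222) (.pow (psE c0 c1 2) 3)))
    (.mul (.c R33) (.pow (psE c0 c1 3) 2)))
    (.mul (.c R24) (.mul (psE c0 c1 2) (psE c0 c1 4)))

theorem ev_psE (p d : Fin 4 → ℝ) (c0 c1 : ℤ) (n : ℕ)
    (h : ∀ i, (c1 : ℝ) * p i + (c0 : ℝ) = d i) : PE.ev p (psE c0 c1 n) = ∑ i, d i ^ n := by
  simp only [psE, dE, PE.ev, h, Fin.sum_univ_four]
  ring

theorem ev_sideE6 (p d : Fin 4 → ℝ) (c0 c1 R0 R2 R3 R22 R4 R23 R222 R33 R24 : ℤ)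
    (h : ∀ i, (c1 : ℝ) * p i + (c0 : ℝ) = d i) :
    PE.ev p (sideE6 c0 c1 R0 R2 R3 R22 R4 R23 R222 R33 R24) =
      R0 + R2 * (∑ i, d i ^ 2) + R3 * (∑ i, d i ^ 3) + R22 * (∑ i, d i ^ 2) ^ 2
        + R4 * (∑ i, d i ^ 4) + R23 * ((∑ i, d i ^ 2) * ∑ i, d i ^ 3) + R222 * (∑ i, d i ^ 2) ^ 3
        + R33 * (∑ i, d i ^ 3) ^ 2 + R24 * ((∑ i, d i ^ 2) * ∑ i, d i ^ 4) := by
  simp only [sideE6, PE.ev, ev_sideE p d c0 c1 _ _ _ _ _ h, ev_psE p d c0 c1 _ h]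

end Vale.Agent.P154
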